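import Mathlib
import Vale.Agent.P245.H729.PathBI

set_option linter.all false

open MeasureTheory Real Set Filter Topology
open scoped ENNReal ContDiff

/-! Core of the improved Lichnerowicz bound for the log-Sobolev constant. -/

namespace Vale.Agent.P245.H729

open Vale.Agent.P245 Vale.Agent.P245.LS Vale.Agent.P245.E1

/-- final accounting of the step -/
theorem account {L F F' κ δ α X β G Bq Xp I HE' W Co' : ℝ} (hL : 1 ≤ L) (hF : 0 < F) (hκ : 0 < κ)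
    (hκ1 : 1 ≤ κ)
    (hδ : κ / 4000 ≤ δ) (hδ2 : 2000 * δ ≤ κ) (hα0 : 0 ≤ α) (hα : α ≤ 1 / 10 ^ 6 * F)
    (hX0 : 0 ≤ X) (hX : κ * X = 2 * L * F) (hβ : β = 10 * α + 8 * δ * X)
    (hXp : Xp = 2 * X + 2 * β / κ) (hm1 : W - β ≤ HE' - κ * F')
    (hm4 : κ * G + 2 * κ * Bq ≤ 1 / 2 * F' + β / δ)
    (hCo : Co' ≤ Xp) (hlow : 2 * κ / 2 * (F' - Co') ≤ I)
    (hrev : HE' + I - κ * (F' + 2 * κ * G) ≤ W) :
    4 * κ ^ 2 * Bq ≤ 70 * L * F := by
  have hδ0 : 0 < δ := lt_of_lt_of_le (by positivity) hδ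
  have hβ0 : 0 ≤ β := by rw [hβ]; positivity
  have h1 : κ * Xp = 4 * L * F + 2 * β := by
    have : κ * Xp = 2 * (κ * X) + 2 * β := by rw [hXp]; field_simp
    rw [this, hX]; ring
  have h2 : 2 * κ * (β / δ) ≤ 8000 * β := by
    have e : 2 * κ * (β / δ) = 2 * β * (κ / δ) := by ring
    rw [e]
    have h3 : κ / δ ≤ 4000 := by
      rw [div_le_iff₀ hδ0]; linarith only [hδ]
    nlinarith only [hβ0, h3]
  have h3 : β ≤ 801 / 100000 * (L * F) := by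
    have k1 : 8 * δ * X ≤ 8 / 2000 * (κ * X) := by nlinarith only [hδ2, hX0]
    have k2 : F ≤ L * F := by nlinarith only [hL, hF]
    rw [hX] at k1
    rw [hβ]
    nlinarith only [hα, k1, k2]
  -- `2 κ² G ≥ κ (F' - Xp) - β`
  have h4 : κ * (F' - Xp) - β ≤ 2 * κ ^ 2 * G := by
    have h5 : κ * (F' - Xp) ≤ I := by
      have : κ * (F' - Xp) ≤ κ * (F' - Co') := mul_le_mul_of_nonneg_left (by linarith only [hCo]) hκ.le
      linarith only [this, hlow]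
    nlinarith only [h5, hrev, hm1]
  have h6 : 2 * κ * (κ * G + 2 * κ * Bq) ≤ 2 * κ * (1 / 2 * F' + β / δ) :=
    mul_le_mul_of_nonneg_left hm4 (by positivity)
  have hLF : 0 < L * F := by positivity
  nlinarith only [h4, h6, h1, h2, h3, hLF, hβ0]

/-- the step: a near-maximiser gives a law with small curvature term -/
theorem stepBI (hB : ∀ n, StBoot n) (hP : ∀ n, StPathBI n) (hCo : ∀ n, StCo n)
    (hRv : ∀ n, StRv n) {Λ L : ℝ} (hΛ : 1 ≤ Λ) (hL : L = 6400000000 * (2 * Λ + 1) + 1) :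
    ∀ n (ρ0 : (Fin n → ℝ) → ℝ) (R : ℝ), LCd ρ0 → IsProbabilityMeasure (mu ρ0) →
    CSupp (mu ρ0) R → ExpM (mu ρ0) 3 →
    ∀ (N : (Fin n → ℝ) → ℝ) (δ κ σ α D : ℝ), 250 * L ≤ κ → κ / 4000 ≤ δ → 2000 * δ ≤ κ →
      DBS (mu ρ0) (2 * δ) δ κ D →
      σ ∈ Icc (2 * δ) (3 * δ) → Pos N → EY (mu ρ0) σ N = 1 →
      0 ≤ α → α ≤ 1 / 10 ^ 6 * FI (mu ρ0) σ N →
      D - α ≤ HE (mu ρ0) σ N - κ * FI (mu ρ0) σ N →
      HE (mu ρ0) σ N ≤ Λ * κ * FI (mu ρ0) σ N → log 3 ≤ Λ * κ * FI (mu ρ0) σ N →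
      ∃ (v : ℝ) (M : (Fin n → ℝ) → ℝ), v ∈ Icc (2 * δ) (3 * δ) ∧ Pos M ∧
        9 / 10 * FI (mu ρ0) σ N ≤ FI (mu ρ0) v M ∧ 0 < FI (mu ρ0) σ N ∧
        4 * κ ^ 2 * BI (mu ρ0) v M (sN M) (sN M) ≤ 70 * L * FI (mu ρ0) σ N := by
  have hL1 : 1 ≤ L := by rw [hL]; linarith only [hΛ]
  intro n ρ0 R hlc hpm hsup hexp N δ κ σ α D hK0 hδ1 hδ2 hD hσ hN hN1 hα0 hα hdef hHE hlog
  have := hpm
  set F := FI (mu ρ0) σ N with hF
  have hκ : 0 < κ := lt_of_lt_of_le (by linarith only [hL1]) hK0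
  have hδ0 : 0 < δ := lt_of_lt_of_le (by (clear * - hκ; positivity)) hδ1
  have hlog3 : 0 < log 3 := Real.log_pos (by norm_num)
  have hFpos : 0 < F := by
    by_contra hc
    have h1 : Λ * κ * F ≤ 0 := mul_nonpos_of_nonneg_of_nonpos (by (clear * - hΛ hκ; positivity)) (not_lt.1 hc)
    linarith only [hlog, hlog3, h1]
  have hx : 2 * δ * F ≤ κ * F := mul_le_mul_of_nonneg_right (by linarith only [hL1, hK0, hδ2]) hFpos.le
  have hα4 : 10 ^ 4 * α ≤ κ * F := by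
    have : F ≤ κ * F := by nlinarith only [hFpos, hL1, hK0]
    linarith
  have hscore : ∀ i, SB (sN N i) := fun i => hN.div (hN.sb.pd i)
  obtain ⟨⟨hFI, -⟩, -, hch⟩ := hCo n (mu ρ0) σ N hN
  have hch' := hch hN1
  -- the bootstrap
  set A0 := L * F / κ with hA0
  have hA0pos : 0 ≤ A0 := by rw [hA0]; (clear * - hL1 hFpos hκ; positivity)
  have hforce := step_forcing (H := HE (mu ρ0) σ N) (ℓ := log 3) hΛ hκ hδ1 hFpos hα hHE hlog hL
  have hPred0 : Pred (mu ρ0) σ N (sN N) (κ * F) F := by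
    intro l hl _
    have h1 := ((hch' l hl).2 (sN N) hscore).2.1
    rwa [← hFI] at h1
  have hstep : ∀ X, 0 ≤ X → X ≤ F → Pred (mu ρ0) σ N (sN N) (κ * F) X →
      Pred (mu ρ0) σ N (sN N) (κ * F) (A0 + X / 2) := by
    intro X hX0 hXF hPX l hl hI
    have h1 := hB n ρ0 R 3 hlc hpm hsup (by norm_num) hexp N δ κ σ α (κ * F) X D hδ0 hδ2 hD hσ hN
      hN1 hα0 hα4 hdef hx hX0 hXF hPX l hl hI
    linarith only [hforce, h1]
  have hclose : Pred (mu ρ0) σ N (sN N) (κ * F) (2 * A0) := by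
    have key := contraction_close
      (ι := {l : (Fin n → ℝ) → (Fin n → ℝ) → ℝ // Ch l ∧ Inf (mu ρ0) σ N l ≤ κ * F})
      (P := fun l => Co (mu ρ0) σ N (sN N) l.1) (A := A0) (N0 := F)
      (fun l => hPred0 l.1 l.2.1 l.2.2) hFpos.le
      (fun X hX0 hX l => by
        rcases le_total X F with hXF | hXF
        · exact hstep X hX0 hXF (fun l' hl' hI' => hX ⟨l', hl', hI'⟩) l.1 l.2.1 l.2.2
        · have h1 := hstep F hFpos.le le_rfl hPred0 l.1 l.2.1 l.2.2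
          linarith only [hXF, h1])
      hA0pos
    intro l hl hI
    exact key ⟨l, hl, hI⟩
  have h2A : 2 * A0 ≤ F := by
    have e : 2 * A0 = 2 * L * F / κ := by rw [hA0]; ring
    rw [e, div_le_iff₀ hκ]
    nlinarith only [hFpos, hK0, hL1]
  -- the path
  obtain ⟨v, M, hv, hM, hM1, m1, m2, m3, m4, m5⟩ := hP n ρ0 R hlc hpm hsup N δ κ σ α (κ * F)
    (2 * A0) D hδ0 hδ2 hD hσ hN hN1 hα0 hα4 hdef hx (by (clear * - hA0pos; positivity)) h2A hclose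
  set β := 10 * α + 8 * δ * (2 * A0) with hβ
  have hv' : v ∈ Icc (2 * δ) (2 * δ + δ) := ⟨hv.1, by linarith only [hv.2]⟩
  have hv0 : 0 ≤ v := by linarith only [hv.1, hδ0]
  have hsb : ∀ i, SB (sN M i) := fun i => hM.div (hM.sb.pd i)
  obtain ⟨⟨eFI, eGA⟩, -, -⟩ := hCo n (mu ρ0) v M hM
  obtain ⟨hCh, hup, hlow, hrev⟩ := hRv n (mu ρ0) v (2 * κ) κ D M (sN M) hv0 (by positivity) hM hM1 hsb
  have hrev := hrev (hD v hv')
  rw [← eFI] at hup hlow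
  rw [← eGA] at hrev
  have hx' : Inf (mu ρ0) v M (RL (2 * κ) (sN M)) ≤ κ * F := by
    refine hup.trans ?_
    have e : 2 * κ / 2 = κ := by ring
    rw [e]
    exact mul_le_mul_of_nonneg_left m3 hκ.le
  have hCo1 := m5 _ hCh hx'
  refine ⟨v, M, hv, hM, m2, hFpos, ?_⟩
  refine account (X := 2 * A0) (β := β) hL1 hFpos hκ (by linarith only [hK0, hL1]) hδ1 hδ2 hα0 hα
    (by positivity) ?_ hβ rfl m1 m4 hCo1 hlow hrev
  rw [hA0]
  (clear * - hκ hFpos hL1; field_simp)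

end Vale.Agent.P245.H729
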