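import Mathlib
import Vale.Agent.P245.Bdl.B2

set_option linter.all false

open MeasureTheory Real Set Filter Topology
open scoped ENNReal ContDiff

/-! Lower bound of the Hessian of the potential of `μ * γ_r` for a strongly log-concave `μ`. -/

namespace Vale.Agent.P245.H729

open Vale.Agent.P245 Vale.Agent.P245.LS Vale.Agent.P245.LS.UpA Vale.Agent.P245.E1
open LS LS.Down

variable {n : ℕ}

theorem gwt_gwt (t s : ℝ) (ρ1 E : (Fin n → ℝ) → ℝ) :
    gwt s (fun x => gwt t ρ1 x * E x) = gwt (s + t) (fun x => ρ1 x * E x) := by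
  funext x
  unfold gwt
  have : exp (-((s + t) / 2 * ∑ i, x i ^ 2))
      = exp (-(t / 2 * ∑ i, x i ^ 2)) * exp (-(s / 2 * ∑ i, x i ^ 2)) := by
    rw [← exp_add]; congr 1; ring
  rw [this]; ring

variable {t : ℝ} {ρ1 : (Fin n → ℝ) → ℝ} {R : ℝ}

theorem poin_strong (ht : 0 ≤ t) (hρ1 : LCd ρ1) (hρ : LCd (gwt t ρ1))
    [IsProbabilityMeasure (mu (gwt t ρ1))] (h : CSupp (mu (gwt t ρ1)) R)
    {p : ℝ × (Fin n → ℝ)} (hp : 0 < p.1) :
    Poin (post (gwt t ρ1) p) (1 / (p.1 + t)) := by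
  intro f hf
  obtain ⟨g, hg, ⟨R', hR'⟩, hgf⟩ := exists_cutoff hf R
  have ip := isProb_post hρ h p
  have hZ := Zo_pos h p
  have hg1 : ContDiff ℝ 1 g := hg.of_le (by norm_num)
  have hpost : post (gwt t ρ1) p = volume.withDensity fun x => ENNReal.ofReal
      (gwt (p.1 + t) (fun x => ρ1 x * (exp (∑ i, p.2 i * x i)
        * (Zo (mu (gwt t ρ1)) p)⁻¹)) x) := by
    unfold post
    rw [gwt_gwt]
  have key := poincare_sharp (κ := p.1 + t) (by linarith) (hρ1.mul_expL p.2 (inv_pos.2 hZ))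
    (ν := post (gwt t ρ1) p) hpost hg hR'
  have hpi : ∀ i ∈ (Finset.univ : Finset (Fin n)),
      Integrable (fun x => pd g i x ^ 2) (post (gwt t ρ1) p) := by
    intro i _
    obtain ⟨P, hP⟩ := bdd_of_const_outside (continuous_pd hg1 i) (pd_const_outside hR' i)
    exact integrable_of_bdd _ ((continuous_pd hg1 i).measurable.pow_const 2) (K := P ^ 2) fun x => by
        rw [abs_of_nonneg (sq_nonneg _), ← sq_abs]; exact pow_le_pow_left₀ (abs_nonneg _) (hP x) 2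
  rw [← integral_finsetSum _ hpi, integral_post hρ h, integral_post hρ h, integral_post hρ h,
    Vf_eq h (Adm.of_continuous h hg.continuous), sub_self, zero_pow two_ne_zero, add_zero] at key
  have hae : ∀ᵐ x ∂(mu (gwt t ρ1)), g x = f x ∧ ∀ i, pd g i x = pd f i x := by
    filter_upwards [h.supp] with x hx using hgf x hx
  rw [Vf_congr_ae (g' := f) (hae.mono fun x hx => hx.1),
    Mf_congr_ae (g' := fun x => ∑ i, pd f i x ^ 2) (hae.mono fun x hx => by simp only [hx.2]),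
    Vf_eq_post hρ h, ← integral_post hρ h] at key
  exact key

theorem cov_strong (ht : 0 ≤ t) (hρ1 : LCd ρ1) (hρ : LCd (gwt t ρ1))
    [IsProbabilityMeasure (mu (gwt t ρ1))] (h : CSupp (mu (gwt t ρ1)) R)
    {p : ℝ × (Fin n → ℝ)} (hp : 0 < p.1) (u : Fin n → ℝ) :
    Vf (mu (gwt t ρ1)) (fun x => ∑ i, u i * x i) p ≤ 1 / (p.1 + t) * ∑ i, u i ^ 2 := by
  have := isProb_post hρ h p
  exact Vf_lin_le hρ h (covLe_of_poin (poin_strong ht hρ1 hρ h hp)) u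

theorem Pq_strong (ht : 0 ≤ t) (hρ1 : LCd ρ1) (hρ : LCd (gwt t ρ1))
    [IsProbabilityMeasure (mu (gwt t ρ1))] (h : CSupp (mu (gwt t ρ1)) R)
    {σ : ℝ} (hσ : 0 < σ) (y u : Fin n → ℝ) :
    t / (1 + t * σ) * ∑ i, u i ^ 2 ≤ Pq (mu (gwt t ρ1)) σ y u u := by
  rw [Pq_self h]
  have h1 := cov_strong ht hρ1 hρ h (p := (1 / σ, (1 / σ) • y)) (by positivity) u
  have hS : 0 ≤ ∑ i, u i ^ 2 := Finset.sum_nonneg fun i _ => sq_nonneg _
  have h2 := mul_le_mul_of_nonneg_left h1 (by positivity : 0 ≤ 1 / σ ^ 2)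
  have hp1 : 0 < 1 + t * σ := by positivity
  have e : 1 / σ * ∑ i, u i ^ 2 - 1 / σ ^ 2 * (1 / (1 / σ + t) * ∑ i, u i ^ 2)
      = t / (1 + t * σ) * ∑ i, u i ^ 2 := by
    have e1 : 1 / σ + t = (1 + t * σ) / σ := by field_simp
    rw [e1]
    field_simp
    ring
  have h3 : ((1 / σ, (1 / σ) • y) : ℝ × (Fin n → ℝ)).1 = 1 / σ := rfl
  rw [h3] at h2
  linarith only [h2, e]

/-- `⟨D²V_r φ, φ⟩ ≥ t / (1 + t r) |φ|²` -/
theorem BI_low (ht : 0 ≤ t) (hρ1 : LCd ρ1) (hρ : LCd (gwt t ρ1))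
    [IsProbabilityMeasure (mu (gwt t ρ1))] (h : CSupp (mu (gwt t ρ1)) R)
    {r : ℝ} (hr : 0 < r) {N : (Fin n → ℝ) → ℝ} (hN : Pos N)
    {φ : Fin n → (Fin n → ℝ) → ℝ} (hφ : ∀ i, SB (φ i)) :
    t / (1 + t * r) * IP (mu (gwt t ρ1)) r N φ φ ≤ BI (mu (gwt t ρ1)) r N φ φ := by
  rw [BI_eq h hr, IP]
  have hS : SB fun y => ∑ i, φ i y * φ i y := SB.sum _ fun i _ => (hφ i).mul (hφ i)
  have hP := Pq_sb h hr hφ hφ
  have e : EY (mu (gwt t ρ1)) r (fun y => N y * Pq (mu (gwt t ρ1)) r y (fun i => φ i y) (fun i => φ i y))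
      + (-(t / (1 + t * r))) * EY (mu (gwt t ρ1)) r (fun y => N y * ∑ i, φ i y * φ i y)
      = EY (mu (gwt t ρ1)) r (fun y => N y * Pq (mu (gwt t ρ1)) r y (fun i => φ i y) (fun i => φ i y)
        + (-(t / (1 + t * r))) * (N y * ∑ i, φ i y * φ i y)) := by
    rw [EY_add _ _ (hN.sb.mul hP) ((hN.sb.mul hS).const_mul _), EY_const_mul]
  have h0 : 0 ≤ EY (mu (gwt t ρ1)) r (fun y => N y * Pq (mu (gwt t ρ1)) r y (fun i => φ i y) (fun i => φ i y)
        + (-(t / (1 + t * r))) * (N y * ∑ i, φ i y * φ i y)) := by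
    refine EY_nonneg _ _ fun y => ?_
    have h1 := Pq_strong ht hρ1 hρ h hr y (fun i => φ i y)
    have h2 := mul_le_mul_of_nonneg_left h1 (hN.pos y).le
    have e2 : ∑ i, φ i y * φ i y = ∑ i, φ i y ^ 2 := Finset.sum_congr rfl fun i _ => by ring
    rw [e2]
    linarith only [h2]
  rw [← e] at h0
  linarith only [h0]

/-- the same for a density `ρ` with `exp (t |x|² / 2) ρ` log-concave (literal row for the core) -/
theorem BI_row {ρ : (Fin n → ℝ) → ℝ} (ht : 0 ≤ t) (hρ : LCd ρ)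
    (h1 : LCd (fun x => exp (t / 2 * ∑ i, x i ^ 2) * ρ x))
    (hprob : IsProbabilityMeasure (mu ρ)) (h : CSupp (mu ρ) R) :
    ∀ (r : ℝ) (N : (Fin n → ℝ) → ℝ) (φ : Fin n → (Fin n → ℝ) → ℝ), 0 < r → Pos N →
      (∀ i, SB (φ i)) → t / (1 + t * r) * IP (mu ρ) r N φ φ ≤ BI (mu ρ) r N φ φ := by
  intro r N φ hr hN hφ
  have e : gwt t (fun x => exp (t / 2 * ∑ i, x i ^ 2) * ρ x) = ρ := by
    funext x
    unfold gwt
    have h2 : exp (t / 2 * ∑ i, x i ^ 2) * exp (-(t / 2 * ∑ i, x i ^ 2)) = 1 := by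
      rw [← exp_add, add_neg_cancel, exp_zero]
    calc exp (t / 2 * ∑ i, x i ^ 2) * ρ x * exp (-(t / 2 * ∑ i, x i ^ 2))
        = (exp (t / 2 * ∑ i, x i ^ 2) * exp (-(t / 2 * ∑ i, x i ^ 2))) * ρ x := by ring
      _ = ρ x := by rw [h2, one_mul]
  have hρ' : LCd (gwt t (fun x => exp (t / 2 * ∑ i, x i ^ 2) * ρ x)) := by rw [e]; exact hρ
  have hp' : IsProbabilityMeasure (mu (gwt t (fun x => exp (t / 2 * ∑ i, x i ^ 2) * ρ x))) := by
    rw [e]; exact hprob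
  have hc' : CSupp (mu (gwt t (fun x => exp (t / 2 * ∑ i, x i ^ 2) * ρ x))) R := by rw [e]; exact h
  have key := BI_low ht h1 hρ' hc' hr hN hφ
  rwa [e] at key

end Vale.Agent.P245.H729
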