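import Mathlib
import Vale.Agent.P245.H729.Core

set_option linter.all false

open MeasureTheory Real Set Filter Topology
open scoped ENNReal ContDiff

/-! The improved Lichnerowicz bound for the log-Sobolev constant, compactly supported case. -/

namespace Vale.Agent.P245.H729

open Vale.Agent.P245 Vale.Agent.P245.LS Vale.Agent.P245.E1

variable {n : ℕ}

theorem num_contra {L k κ0 t v b F F' : ℝ} (hL : 1 ≤ L) (hk : k = 49 / 50 * κ0) (ht : 0 < t)
    (hκ0 : 161 * L * (1 + 1 / √t) ≤ κ0) (hv0 : 0 ≤ v) (hv : v ≤ κ0 / 1000) (hF : 0 < F)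
    (hF' : 9 / 10 * F ≤ F') (hb : t / (1 + t * v) * F' ≤ b)
    (h : 4 * k ^ 2 * b ≤ 70 * L * F) : False := by
  have hs : 0 < √t := Real.sqrt_pos.2 ht
  have hs2 : √t ^ 2 = t := Real.sq_sqrt ht.le
  have hκL : 161 * L ≤ κ0 := by
    refine le_trans ?_ hκ0
    have : 0 ≤ 161 * L * (1 / √t) := by positivity
    nlinarith only [this]
  have hκs : 161 * L ≤ κ0 * √t := by
    have h1 := mul_le_mul_of_nonneg_right hκ0 hs.le
    have e : 161 * L * (1 + 1 / √t) * √t = 161 * L * √t + 161 * L := by field_simp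
    rw [e] at h1
    have : 0 ≤ 161 * L * √t := by positivity
    linarith only [h1, this]
  have hκ2t : (161 * L) ^ 2 ≤ κ0 ^ 2 * t := by
    have h1 : (161 * L) ^ 2 ≤ (κ0 * √t) ^ 2 := pow_le_pow_left₀ (by positivity) hκs 2
    have e : (κ0 * √t) ^ 2 = κ0 ^ 2 * t := by rw [mul_pow, hs2]
    rwa [e] at h1
  have hκp : 0 < κ0 := by linarith only [hκL, hL]
  have hD : 0 < 1 + t * v := by positivity
  -- `4 k² t (9/10) F ≤ 70 L F (1 + t v)`
  have h1 : t * (9 / 10 * F) ≤ b * (1 + t * v) := by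
    have h2 : t / (1 + t * v) * (9 / 10 * F) ≤ b :=
      (mul_le_mul_of_nonneg_left hF' (by positivity)).trans hb
    rw [div_mul_eq_mul_div, div_le_iff₀ hD] at h2
    exact h2
  have h2 : 4 * k ^ 2 * (t * (9 / 10 * F)) ≤ 70 * L * F * (1 + t * v) := by
    calc 4 * k ^ 2 * (t * (9 / 10 * F)) ≤ 4 * k ^ 2 * (b * (1 + t * v)) :=
          mul_le_mul_of_nonneg_left h1 (by positivity)
      _ = 4 * k ^ 2 * b * (1 + t * v) := by ring
      _ ≤ _ := mul_le_mul_of_nonneg_right h hD.le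
  have h3 : 4 * k ^ 2 * (t * (9 / 10)) ≤ 70 * L * (1 + t * v) := by
    have e1 : 4 * k ^ 2 * (t * (9 / 10 * F)) = F * (4 * k ^ 2 * (t * (9 / 10))) := by ring
    have e2 : 70 * L * F * (1 + t * v) = F * (70 * L * (1 + t * v)) := by ring
    rw [e1, e2] at h2
    exact le_of_mul_le_mul_left h2 hF
  have h4 : t * v ≤ t * (κ0 / 1000) := mul_le_mul_of_nonneg_left hv ht.le
  have h5 : L * (t * κ0) ≤ κ0 ^ 2 * t / 161 := by
    have : L * (t * κ0) * 161 ≤ κ0 * (t * κ0) := by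
      have := mul_le_mul_of_nonneg_right hκL (by positivity : 0 ≤ t * κ0)
      linarith only [this]
    rw [le_div_iff₀ (by norm_num)]
    linarith only [this]
  have h6 : 70 * L * (1 + t * v) ≤ 70 * L + 7 / 100 * (L * (t * κ0)) := by
    have := mul_le_mul_of_nonneg_left h4 (by positivity : 0 ≤ 70 * L)
    linarith only [this]
  have h7 : 4 * k ^ 2 * (t * (9 / 10)) = (4 * (49 / 50) ^ 2 * (9 / 10)) * (κ0 ^ 2 * t) := by
    rw [hk]; ring
  have h8 : L ≤ κ0 ^ 2 * t / 161 ^ 2 := by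
    rw [le_div_iff₀ (by norm_num)]
    nlinarith only [hκ2t, hL]
  rw [h7] at h3
  have h9 : 0 < κ0 ^ 2 * t := by positivity
  nlinarith only [h3, h6, h5, h8, h9]

/-- contradiction at a large critical level -/
theorem coreBI {L : ℝ} (hL : L = 6400000000 * (2 * 700 + 1) + 1)
    (hS : ∀ n (ρ0 : (Fin n → ℝ) → ℝ) (R : ℝ), LCd ρ0 → IsProbabilityMeasure (mu ρ0) →
    CSupp (mu ρ0) R → ExpM (mu ρ0) 3 →
    ∀ (N : (Fin n → ℝ) → ℝ) (δ κ σ α D : ℝ), 250 * L ≤ κ → κ / 4000 ≤ δ → 2000 * δ ≤ κ →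
      DBS (mu ρ0) (2 * δ) δ κ D →
      σ ∈ Icc (2 * δ) (3 * δ) → Pos N → EY (mu ρ0) σ N = 1 →
      0 ≤ α → α ≤ 1 / 10 ^ 6 * FI (mu ρ0) σ N →
      D - α ≤ HE (mu ρ0) σ N - κ * FI (mu ρ0) σ N →
      HE (mu ρ0) σ N ≤ 700 * κ * FI (mu ρ0) σ N → log 3 ≤ 700 * κ * FI (mu ρ0) σ N →
      ∃ (v : ℝ) (M : (Fin n → ℝ) → ℝ), v ∈ Icc (2 * δ) (3 * δ) ∧ Pos M ∧
        9 / 10 * FI (mu ρ0) σ N ≤ FI (mu ρ0) v M ∧ 0 < FI (mu ρ0) σ N ∧
        4 * κ ^ 2 * BI (mu ρ0) v M (sN M) (sN M) ≤ 70 * L * FI (mu ρ0) σ N)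
    (hLv : StLv n) (hCo : StCo n) {ρ : (Fin n → ℝ) → ℝ} {R t : ℝ} (hn : 1 ≤ n) (hρ : LCd ρ) (ht : 0 < t)
    (ht1 : LCd (fun x => exp (t / 2 * ∑ i, x i ^ 2) * ρ x))
    (hprob : IsProbabilityMeasure (mu ρ)) (hR : CSupp (mu ρ) R) (hexp : ExpM (mu ρ) 3) {κ0 : ℝ}
    (hκ0 : 1000 * L * (1 + 1 / √t) ≤ κ0) (h1 : DB (mu ρ) κ0 (log 2 / 2))
    (h2 : ¬ DB (mu ρ) (99 / 100 * κ0) (log 2 / 2)) : False := by
  have hL1 : 1 ≤ L := by rw [hL]; norm_num
  have hs : 0 < √t := Real.sqrt_pos.2 ht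
  have hl2 : 0 < log 2 := Real.log_pos (by norm_num)
  have hκL : 1000 * L ≤ κ0 := by
    refine le_trans ?_ hκ0
    have : 0 ≤ 1000 * L * (1 / √t) := by positivity
    nlinarith only [this]
  have hκ500 : 500 ≤ κ0 := by linarith only [hκL, hL1]
  have hκp : 0 < κ0 := by linarith only [hκ500]
  obtain ⟨δ, hδ⟩ : ∃ δ, δ = κ0 / 4000 := ⟨_, rfl⟩
  have hδ0 : 0 < δ := by rw [hδ]; (clear * - hκ500; positivity)
  have hne : Nonempty (GF (mu ρ) δ) :=
    ⟨⟨(2 * δ, fun _ => 1), ⟨le_rfl, by linarith only [hδ0]⟩, g_Pos_one, g_EY_one _ _⟩⟩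
  -- tight inequality with constant `46 κ0`
  have h46 : DB (mu ρ) (46 * κ0) 0 := by
    have a1 := (thH2 n (mu ρ) R κ0 (log 2 / 2) hR hκp.le (by positivity)).1 h1
    have a2 := thH4 n (mu ρ) κ0 hκp.le a1
    refine (thH2 n (mu ρ) R (46 * κ0) 0 hR (by positivity) le_rfl).2 ?_
    have e : 4 * (46 * κ0) = 184 * κ0 := by ring
    rw [e]
    exact a2
  have hlev : ∀ f : GF (mu ρ) δ, 0 < f.1.1 ∧ f.1.1 / 2 ≤ 3 / 2 * δ := by
    intro f
    have a := f.2.1.1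
    have b := f.2.1.2
    constructor
    · linarith only [hδ0, a]
    · linarith only [b]
  have hup : ∀ κ D, 0 ≤ κ → DB (mu ρ) κ D → ∀ f : GF (mu ρ) δ,
      HE (mu ρ) f.1.1 f.1.2 ≤ (κ + 3 / 2 * δ) * FI (mu ρ) f.1.1 f.1.2 + D := by
    intro κ D hκ hDB f
    have a := (hLv ρ R hρ hprob hR f.1.1 κ D (hlev f).1 hκ).1 hDB f.1.2 f.2.2.1 f.2.2.2
    have b := mul_le_mul_of_nonneg_right (hlev f).2 (g_FI_nonneg (mu ρ) f.1.1 f.2.2.1)
    rw [add_mul] at a ⊢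
    linarith only [b, a]
  have hH1 := thH1 n ρ R hn hρ hprob hR hexp
  have hb1 := hup 4 (6 * n) (by norm_num) hH1
  have hb2 := hup (46 * κ0) 0 (by positivity) h46
  set k : ℝ := 49 / 50 * κ0 with hk
  have hk1 : 4 + 3 / 2 * δ ≤ k := by rw [hδ, hk]; linarith only [hκ500]
  set Hf : GF (mu ρ) δ → ℝ := fun f => HE (mu ρ) f.1.1 f.1.2 with hHf
  set If : GF (mu ρ) δ → ℝ := fun f => FI (mu ρ) f.1.1 f.1.2 with hIf
  have hI0 : ∀ f, 0 ≤ If f := fun f => g_FI_nonneg _ _ f.2.2.1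
  set W := iterD Hf If k with hW
  have hDBS : DBS (mu ρ) (2 * δ) δ k W := by
    intro r hr N hN hE
    have hr' : r ∈ Icc (2 * δ) (3 * δ) := ⟨hr.1, by linarith only [hr.2]⟩
    have := g_le (H := Hf) (I := If) hI0 hb1 hk1 ⟨(r, N), hr', hN, hE⟩
    simp only [hHf, hIf] at this
    linarith only [this]
  -- the defect at `k` is not small
  have hlow : log 2 / 2 < W := by
    by_contra hcon
    push Not at hcon
    apply h2
    have a := hDBS (2 * δ) ⟨le_rfl, by linarith only [hδ0]⟩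
    have b := (hLv ρ R hρ hprob hR (2 * δ) k _ (by linarith only [hδ0]) (by linarith only [hκ500, hk])).2 a
    exact g_DB_mono b (by rw [hδ, hk]; linarith only [hκ500]) hcon
  -- near-maximiser
  obtain ⟨α, hα, hα2, hα3⟩ : ∃ α : ℝ, 0 < α ∧ α ≤ log 2 / 4 ∧
      α ≤ 1 / 10 ^ 6 * (log 2 / (188 * κ0)) :=
    ⟨min (log 2 / 4) (1 / 10 ^ 6 * (log 2 / (188 * κ0))),
      lt_min (by positivity) (by positivity), min_le_left _ _, min_le_right _ _⟩
  obtain ⟨f, hf⟩ := exists_lt_of_lt_ciSup (f := fun f => Hf f - k * If f)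
    (show W - α < ⨆ f, (Hf f - k * If f) from by
      change W - α < W
      linarith only [hα])
  have hIf0 := hI0 f
  have hkp : 0 < k := by rw [hk]; positivity
  have hkI : 0 ≤ k * If f := by positivity
  have hb2f : Hf f ≤ 47 * κ0 * If f := by
    have a := hb2 f
    have b : (46 * κ0 + 3 / 2 * δ) * FI (mu ρ) f.1.1 f.1.2 ≤
        47 * κ0 * FI (mu ρ) f.1.1 f.1.2 :=
      mul_le_mul_of_nonneg_right (by rw [hδ]; linarith only [hκ500]) (g_FI_nonneg _ _ f.2.2.1)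
    simp only [hHf, hIf]
    linarith only [a, b]
  have hf' : W - α ≤ Hf f - k * If f := hf.le
  have h3 : log 2 / 4 ≤ 47 * κ0 * If f := by
    linarith only [hα2, hf', hlow, hkI, hb2f]
  have h4 : log 2 / (188 * κ0) ≤ If f := by
    rw [div_le_iff₀ (by positivity)]
    linarith only [h3]
  have h700 : 47 * κ0 * If f ≤ 48 * (k * If f) := by
    have : 47 * κ0 ≤ 48 * k := by rw [hk]; linarith only [hκp]
    have := mul_le_mul_of_nonneg_right this hIf0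
    linarith only [this]
  have hlog3 := g_log3
  obtain ⟨v, M, hv, hM, m2, hFpos, m6⟩ := hS n ρ R hρ hprob hR hexp f.1.2 δ k f.1.1 α W
    (by rw [hk]; linarith only [hκL, hL1]) (by rw [hδ, hk]; linarith only [hκp])
    (by rw [hδ, hk]; linarith only [hκp]) hDBS f.2.1 f.2.2.1 f.2.2.2 hα.le
    (hα3.trans (mul_le_mul_of_nonneg_left h4 (by norm_num))) hf'
    (by
      have : Hf f ≤ 700 * k * If f := by linarith only [hb2f, h700, hkI]
      exact this)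
    (by
      have : log 3 ≤ 700 * k * If f := by linarith only [hlog3, h3, h700, hkI]
      exact this)
  have hv0 : 0 < v := by linarith only [hv.1, hδ0]
  have hsb : ∀ i, SB (sN M i) := fun i => hM.div (hM.sb.pd i)
  have hBI := BI_row ht.le hρ ht1 hprob hR v M (sN M) hv0 hM hsb
  obtain ⟨⟨eFI, -⟩, -, -⟩ := hCo (mu ρ) v M hM
  rw [← eFI] at hBI
  refine num_contra hL1 hk ht ?_ hv0.le ?_ hFpos m2 hBI m6
  · refine le_trans ?_ hκ0
    have : 0 ≤ L * (1 + 1 / √t) := by positivity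
    linarith only [this]
  · rw [hδ] at hv
    linarith only [hv.2, hκp]

/-- 113's statement -/
def StS (n : ℕ) (C : ℝ) : Prop :=
  ∀ (ρ : (Fin n → ℝ) → ℝ) (R t : ℝ), 1 ≤ n → LCd ρ → 0 < t →
    LCd (fun x => exp (t / 2 * ∑ i, x i ^ 2) * ρ x) → IsProbabilityMeasure (mu ρ) →
    CSupp (mu ρ) R → ExpM (mu ρ) 3 → DL (mu ρ) (C * (1 + 1 / √t)) 0

theorem thS : ∃ C, ∀ n, StS n C := by
  have hPA := thPathA'
  have hB : ∀ n, StBoot n := fun n => boot_of n (thK n) (thR' n) (thT' n) (thCo n) (thRv n)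
    (thG0' n) (thU' n) (thDn' n) (thP n) (hPA n)
  have hP : ∀ n, StPathBI n := fun n => thPathBI n (hPA n) (thR' n) (thCo n) (thU' n) (thP n)
  obtain ⟨L, hL⟩ : ∃ L : ℝ, L = 6400000000 * (2 * 700 + 1) + 1 := ⟨_, rfl⟩
  have hS := stepBI hB hP thCo thRv (Λ := 700) (by norm_num) hL
  have hL1 : 1 ≤ L := by rw [hL]; norm_num
  refine ⟨184 * (1000 * L), ?_⟩
  intro n ρ R t hn hρ ht ht1 hprob hR hexp
  have hl2 : 0 < log 2 := Real.log_pos (by norm_num)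
  have hs : 0 < √t := Real.sqrt_pos.2 ht
  obtain ⟨K1, hK1⟩ : ∃ K1, K1 = 1000 * L * (1 + 1 / √t) := ⟨_, rfl⟩
  have hK1p : 0 < K1 := by rw [hK1]; positivity
  have key : DB (mu ρ) K1 (log 2 / 2) := by
    by_contra hcon
    obtain ⟨κ, hκ, h3⟩ := thH3 n ρ R hn hρ hprob hR hexp
    have hex : ∃ i : ℕ, DB (mu ρ) ((100 / 99) ^ i * K1) (log 2 / 2) := by
      obtain ⟨i, hi⟩ := pow_unbounded_of_one_lt (κ / K1) (by norm_num : (1 : ℝ) < 100 / 99)
      refine ⟨i, g_DB_mono h3 ?_ (by positivity)⟩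
      rw [div_lt_iff₀ hK1p] at hi
      exact hi.le
    classical
    obtain ⟨i, hi⟩ : ∃ i, i = Nat.find hex := ⟨_, rfl⟩
    have hi1 : DB (mu ρ) ((100 / 99) ^ i * K1) (log 2 / 2) := by
      rw [hi]; exact Nat.find_spec hex
    have hi2 : ∀ j < i, ¬ DB (mu ρ) ((100 / 99) ^ j * K1) (log 2 / 2) := fun j hj =>
      Nat.find_min hex (by rw [← hi]; exact hj)
    have hi0 : i ≠ 0 := by
      rintro rfl
      apply hcon
      rwa [pow_zero, one_mul] at hi1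
    obtain ⟨l, rfl⟩ := Nat.exists_eq_succ_of_ne_zero hi0
    have hl := hi2 l (Nat.lt_succ_self l)
    have hge : K1 ≤ (100 / 99) ^ (l + 1) * K1 := by
      have : (1 : ℝ) ≤ (100 / 99) ^ (l + 1) := one_le_pow₀ (by norm_num)
      have := mul_le_mul_of_nonneg_right this hK1p.le
      linarith only [this]
    refine coreBI hL hS (thLv n) (thCo n) hn hρ ht ht1 hprob hR hexp (hK1.symm.le.trans hge) hi1 ?_
    have e : 99 / 100 * ((100 / 99) ^ (l + 1) * K1) = (100 / 99) ^ l * K1 := by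
      rw [pow_succ]; ring
    rw [e]
    exact hl
  have a1 := (thH2 n (mu ρ) R K1 (log 2 / 2) hR hK1p.le (by positivity)).1 key
  have a2 := thH4 n (mu ρ) K1 hK1p.le a1
  have e : 184 * (1000 * L) * (1 + 1 / √t) = 184 * K1 := by rw [hK1]; ring
  rw [e]
  exact a2

end Vale.Agent.P245.H729
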